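import Mathlib

/-!
Abstract amplification step: from a weighted covering configuration to an
intersecting partite hypergraph whose covering number equals the number of parts.
-/

namespace Vale.Agent.P045

open Finset

/-- On a set of `p ^ j` elements there is a full system of parallel classes (an affine plane). -/
theorem exists_net (p : ℕ) [Fact p.Prime] (D : Type) [Finite D] (j : ℕ) (hj : j ≠ 0) (hD : Nat.card D = p ^ j) :
    ∃ φ : D → D → D → D,
      (∀ m m' b b', m ≠ m' → ∃ x, φ m b x = φ m' b' x) ∧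
      (∀ m x b b', φ m b x = φ m b' x → b = b') := by
  have hK : Nat.card (GaloisField p j) = p ^ j := GaloisField.card p j hj
  obtain ⟨e⟩ : Nonempty (D ≃ GaloisField p j) := by
    apply Finite.card_eq.mp
    rw [hD, hK]
  refine ⟨fun m b x => e.symm (e m * e x + e b), ?_, ?_⟩
  · intro m m' b b' hm
    have hne : e m - e m' ≠ 0 := sub_ne_zero.mpr (fun h => hm (e.injective h))
    refine ⟨e.symm ((e b' - e b) / (e m - e m')), ?_⟩
    simp only [Equiv.apply_symm_apply]
    congr 1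
    field_simp
    ring
  · intro m x b b' h
    have := e.symm.injective h
    exact e.injective (add_left_cancel this)

theorem core (p : ℕ) [hp : Fact p.Prime] {Y Z L : Type} [Finite Y] [Finite Z] [Finite L]
    (I : Y → L → Prop) (J : Z → L → Prop)
    (huniq : ∀ y z, ∃! v, I y v ∧ J z v)
    (hjoin : ∀ y y', y ≠ y' → ∃ v, I y v ∧ I y' v)
    (hw : ∀ v, ∃ j, Nat.card {z // J z v} = p ^ j)
    (h3 : ∀ y, ∃ v1 v2 v3, I y v1 ∧ I y v2 ∧ I y v3 ∧ v1 ≠ v2 ∧ v1 ≠ v3 ∧ v2 ≠ v3)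
    (hcov : ∀ S : Finset L, (∀ y, ∃ v ∈ S, I y v) →
      Nat.card Z ≤ ∑ v ∈ S, Nat.card {z // J z v})
    (k t : ℕ) (hk : k ≠ 0) (h1 : Nat.card Y * p ^ t ≤ p ^ k)
    (h2 : Nat.card Z * p ^ k ≤ p ^ t * p ^ t) :
    ∃ (W : Type) (_ : Finite W) (part : W → Z × Fin (p ^ k)) (H : Set (Set W)),
      (∀ e ∈ H, ∀ d, ∃! w, w ∈ e ∧ part w = d) ∧
      (∀ e ∈ H, ∀ f ∈ H, ∃ w, w ∈ e ∧ w ∈ f) ∧
      (∀ C : Finset W, C.card < Nat.card Z * p ^ k → ∃ e ∈ H, ∀ w ∈ C, w ∉ e) := by
  classical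
  have hp0 : 0 < p := hp.out.pos
  let D : L → Type := fun v => {z // J z v} × Fin (p ^ k)
  have hDcard : ∀ v, Nat.card (D v) = Nat.card {z // J z v} * p ^ k := by
    intro v
    simp [D, Nat.card_prod]
  have hDpow : ∀ v, ∃ j, j ≠ 0 ∧ Nat.card (D v) = p ^ j := by
    intro v
    obtain ⟨j, hj⟩ := hw v
    exact ⟨j + k, by omega, by rw [hDcard, hj, pow_add]⟩
  have hDge : ∀ v, p ^ k ≤ Nat.card (D v) := by
    intro v
    obtain ⟨j, hj⟩ := hw v
    rw [hDcard, hj]
    exact Nat.le_mul_of_pos_left _ (by positivity)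
  have hDle : ∀ v, Nat.card (D v) ≤ Nat.card Z * p ^ k := by
    intro v
    rw [hDcard]
    exact Nat.mul_le_mul_right _ (Finite.card_subtype_le _)
  have hDne : ∀ v, Nonempty (D v) := by
    intro v
    have : 0 < Nat.card (D v) := lt_of_lt_of_le (by positivity) (hDge v)
    exact (Nat.card_pos_iff.mp this).1
  have hnet : ∀ v, ∃ φ : D v → D v → D v → D v,
      (∀ m m' b b', m ≠ m' → ∃ x, φ m b x = φ m' b' x) ∧
      (∀ m x b b', φ m b x = φ m b' x → b = b') := by
    intro v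
    obtain ⟨j, hj, hc⟩ := hDpow v
    exact exists_net p (D v) j hj hc
  choose φ hφ1 hφ2 using hnet
  let T := Fin (p ^ t)
  have hσ : ∀ v, Nonempty (Y × T ↪ D v) := by
    intro v
    let _ := Fintype.ofFinite Y
    let _ := Fintype.ofFinite (D v)
    apply Function.Embedding.nonempty_of_card_le
    rw [← Nat.card_eq_fintype_card, ← Nat.card_eq_fintype_card]
    refine le_trans ?_ (hDge v)
    simpa [T, Nat.card_prod] using h1
  have hι : ∀ v, Nonempty (D v ↪ T × T) := by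
    intro v
    let _ := Fintype.ofFinite (D v)
    apply Function.Embedding.nonempty_of_card_le
    rw [← Nat.card_eq_fintype_card, ← Nat.card_eq_fintype_card]
    refine le_trans (hDle v) ?_
    simpa [T, Nat.card_prod] using h2
  let σ : ∀ v, Y × T ↪ D v := fun v => (hσ v).some
  let ι : ∀ v, D v ↪ T × T := fun v => (hι v).some
  choose v1 v2 v3 hv1 hv2 hv3 h12 h13 h23 using h3
  let t0 : T := ⟨0, by positivity⟩
  let τ : ∀ y : Y, D (v1 y) → L → T := fun y c v =>
    if v = v2 y then (ι _ c).1 else if v = v3 y then (ι _ c).2 else t0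
  have hτ1 : ∀ y c, τ y c (v1 y) = t0 := by
    intro y c
    simp only [τ]
    rw [if_neg (h12 y), if_neg (h13 y)]
  have hτ2 : ∀ y c, τ y c (v2 y) = (ι _ c).1 := by
    intro y c
    simp only [τ, if_true]
  have hτ3 : ∀ y c, τ y c (v3 y) = (ι _ c).2 := by
    intro y c
    simp only [τ]
    rw [if_neg (h23 y).symm]
    simp only [if_true]
  let W : Type := Σ v : L, D v × D v
  let edge : Y → (∀ v, D v) → Set W := fun y b =>
    {w | I y w.1 ∧ w.2.2 = φ w.1 (σ w.1 (y, τ y (b (v1 y)) w.1)) (b w.1) w.2.1}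
  have hmeet : ∀ y b y' b' v, I y v → I y' v →
      (y, τ y (b (v1 y)) v) ≠ (y', τ y' (b' (v1 y')) v) →
      ∃ w, w ∈ edge y b ∧ w ∈ edge y' b' := by
    intro y b y' b' v hy hy' hne
    obtain ⟨x, hx⟩ := hφ1 v _ _ (b v) (b' v) (fun h => hne ((σ v).injective h))
    exact ⟨⟨v, x, φ v (σ v (y, τ y (b (v1 y)) v)) (b v) x⟩, ⟨hy, rfl⟩, ⟨hy', hx⟩⟩
  refine ⟨W, inferInstance, fun w => (w.2.1.1.1, w.2.1.2), {e | ∃ y b, e = edge y b}, ?_, ?_, ?_⟩
  · rintro e ⟨y, b, rfl⟩ ⟨z, i⟩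
    obtain ⟨v, ⟨hIv, hJv⟩, hu⟩ := huniq y z
    refine ⟨⟨v, (⟨z, hJv⟩, i), φ v (σ v (y, τ y (b (v1 y)) v)) (b v) (⟨z, hJv⟩, i)⟩,
      ⟨⟨hIv, rfl⟩, rfl⟩, ?_⟩
    rintro ⟨v', ⟨⟨z', hz'⟩, i'⟩, val⟩ ⟨⟨hI', hval⟩, hp⟩
    simp only [Prod.mk.injEq] at hp
    obtain ⟨rfl, rfl⟩ := hp
    obtain rfl : v' = v := hu v' ⟨hI', hz'⟩
    have hval' : val = φ v' (σ v' (y, τ y (b (v1 y)) v')) (b v') (⟨z', hz'⟩, i') := hval
    rw [hval']
  · rintro e ⟨y, b, rfl⟩ f ⟨y', b', rfl⟩
    by_cases hyy : y = y'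
    · subst hyy
      by_cases hb : b (v1 y) = b' (v1 y)
      · obtain ⟨x⟩ := hDne (v1 y)
        refine ⟨⟨v1 y, x, φ _ (σ _ (y, τ y (b (v1 y)) (v1 y))) (b (v1 y)) x⟩, ⟨hv1 y, rfl⟩,
          ⟨hv1 y, ?_⟩⟩
        simp only [hb]
      · have hne : ι _ (b (v1 y)) ≠ ι _ (b' (v1 y)) := fun h => hb ((ι _).injective h)
        by_cases hf : (ι _ (b (v1 y))).1 = (ι _ (b' (v1 y))).1
        · refine hmeet y b y b' (v3 y) (hv3 y) (hv3 y) ?_
          rw [hτ3, hτ3]
          intro h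
          exact hne (Prod.ext hf (Prod.mk.inj h).2)
        · refine hmeet y b y b' (v2 y) (hv2 y) (hv2 y) ?_
          rw [hτ2, hτ2]
          intro h
          exact hf (Prod.mk.inj h).2
    · obtain ⟨v, hv, hv'⟩ := hjoin y y' hyy
      exact hmeet y b y' b' v hv hv' (fun h => hyy (Prod.mk.inj h).1)
  · intro C hC
    let _ := Fintype.ofFinite L
    let S : Finset L := univ.filter (fun v => Nat.card (D v) ≤ (C.filter (fun w => w.1 = v)).card)
    have hsum : ∑ v ∈ S, Nat.card (D v) ≤ C.card := by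
      calc ∑ v ∈ S, Nat.card (D v) ≤ ∑ v ∈ S, (C.filter (fun w => w.1 = v)).card :=
            sum_le_sum (fun v hv => (mem_filter.mp hv).2)
        _ ≤ ∑ v, (C.filter (fun w => w.1 = v)).card :=
            sum_le_sum_of_subset (subset_univ _)
        _ = C.card := (card_eq_sum_card_fiberwise (fun w _ => mem_univ (w.1))).symm
    have hlt : ∑ v ∈ S, Nat.card {z // J z v} < Nat.card Z := by
      have : (∑ v ∈ S, Nat.card {z // J z v}) * p ^ k < Nat.card Z * p ^ k := by
        rw [sum_mul]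
        refine lt_of_le_of_lt (le_trans (le_of_eq ?_) hsum) hC
        exact sum_congr rfl (fun v _ => (hDcard v).symm)
      exact lt_of_mul_lt_mul_right this (Nat.zero_le _)
    have hy : ∃ y, ∀ v ∈ S, ¬ I y v := by
      by_contra hcon
      push Not at hcon
      exact absurd (hcov S hcon) (not_le.mpr hlt)
    obtain ⟨y, hy⟩ := hy
    have hg : ∀ v (m : D v), ∃ b : D v, v ∉ S → ∀ x, (⟨v, x, φ v m b x⟩ : W) ∉ C := by
      intro v m
      by_cases hv : v ∈ S
      · obtain ⟨x⟩ := hDne v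
        exact ⟨x, fun h => absurd hv h⟩
      · by_contra hcon
        push Not at hcon
        choose x hx using fun b => (hcon b).2
        apply hv
        simp only [S, mem_filter, mem_univ, true_and]
        let _ := Fintype.ofFinite (D v)
        rw [Nat.card_eq_fintype_card, ← card_univ]
        refine card_le_card_of_injOn (fun b => (⟨v, x b, φ v m b (x b)⟩ : W)) ?_ ?_
        · intro b _
          exact mem_coe.mpr (mem_filter.mpr ⟨hx b, rfl⟩)
        · intro b _ b' _ h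
          simp only [W, Sigma.mk.injEq, heq_eq_eq, Prod.mk.injEq, true_and] at h
          obtain ⟨h1, h2⟩ := h
          rw [← h1] at h2
          exact hφ2 v m _ _ _ h2
    choose g hg using hg
    let c : D (v1 y) := g (v1 y) (σ _ (y, t0))
    let b : ∀ v, D v := fun v => g v (σ v (y, τ y c v))
    have hb : b (v1 y) = c := by
      simp only [b, hτ1, c]
    refine ⟨edge y b, ⟨y, b, rfl⟩, ?_⟩
    rintro ⟨v, x, val⟩ hw ⟨hI, hval⟩
    simp only at hI hval
    have hvS : v ∉ S := fun h => hy v h hI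
    apply hg v (σ v (y, τ y c v)) hvS x
    rw [hb] at hval
    rw [hval] at hw
    exact hw

end Vale.Agent.P045
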