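import Mathlib
import Vale.Agent.P045.Core

/-!
The geometric base: a projective plane of square order, a Baer subplane, and the
Jamison bound for covering all points but one.
-/

namespace Vale.Agent.P045

open Finset Projectivization
open scoped LinearAlgebra.Projectivization

/-- Jamison's bound in homogeneous form. -/
theorem jamison {F : Type} [Field F] [Fintype F] {ι : Type} [Fintype ι]
    (c : ι → Fin 3 → F) (a : Fin 3 → F) (ha : a ≠ 0) (hc : ∀ i, c i ⬝ᵥ a ≠ 0)
    (hcard : Fintype.card ι ≤ 2 * (Fintype.card F - 1))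
    (hcov : ∀ x : Fin 3 → F, (∀ l : F, x ≠ l • a) → ∃ i, c i ⬝ᵥ x = 0) : False := by
  classical
  obtain ⟨i0, hi0⟩ : ∃ i, a i ≠ 0 := Function.ne_iff.mp ha
  set N := 2 * (Fintype.card F - 1) with hN
  have hq : 1 < Fintype.card F := Fintype.one_lt_card
  let lin : ι → MvPolynomial (Fin 3) F := fun i => ∑ j, MvPolynomial.C (c i j) * MvPolynomial.X j
  have hlin : ∀ i x, MvPolynomial.eval x (lin i) = c i ⬝ᵥ x := by
    intro i x
    simp [lin, dotProduct]
  have hdeg : ∀ i, (lin i).totalDegree ≤ 1 := by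
    intro i
    refine MvPolynomial.totalDegree_finsetSum_le (fun j _ => ?_)
    refine le_trans (MvPolynomial.totalDegree_mul _ _) ?_
    simp
  let P : MvPolynomial (Fin 3) F := (∏ i, lin i) * MvPolynomial.X i0 ^ (N - Fintype.card ι)
  have hP : P.totalDegree < (Fintype.card F - 1) * Fintype.card (Fin 3) := by
    have h1 : (∏ i, lin i).totalDegree ≤ Fintype.card ι := by
      refine le_trans (MvPolynomial.totalDegree_finsetProd _ _) ?_
      calc ∑ i, (lin i).totalDegree ≤ ∑ _i : ι, 1 := sum_le_sum (fun i _ => hdeg i)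
        _ = Fintype.card ι := by simp
    have h2 : (MvPolynomial.X i0 ^ (N - Fintype.card ι) : MvPolynomial (Fin 3) F).totalDegree
        ≤ N - Fintype.card ι := by
      simp
    have h3 := MvPolynomial.totalDegree_mul (∏ i, lin i)
      (MvPolynomial.X i0 ^ (N - Fintype.card ι) : MvPolynomial (Fin 3) F)
    simp only [Fintype.card_fin]
    have : P.totalDegree ≤ N := by
      simp only [P]
      omega
    omega
  have hsum := MvPolynomial.sum_eval_eq_zero P hP
  have heval : ∀ x, MvPolynomial.eval x P = (∏ i, c i ⬝ᵥ x) * x i0 ^ (N - Fintype.card ι) := by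
    intro x
    simp [P, hlin]
  have hsm : ∀ l : F, MvPolynomial.eval (l • a) P = l ^ N * MvPolynomial.eval a P := by
    intro l
    rw [heval, heval]
    simp only [dotProduct_smul, smul_eq_mul, prod_mul_distrib, prod_const, card_univ,
      Pi.smul_apply, mul_pow]
    have : l ^ N = l ^ Fintype.card ι * l ^ (N - Fintype.card ι) := by
      rw [← pow_add]
      congr 1
      omega
    rw [this]
    ring
  have hinj : Function.Injective (fun l : F => l • a) := by
    intro l l' h
    have := congrFun h i0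
    simp only [Pi.smul_apply, smul_eq_mul] at this
    exact mul_right_cancel₀ hi0 this
  have hs2 : ∑ x, MvPolynomial.eval x P = ∑ l : F, MvPolynomial.eval (l • a) P := by
    rw [← sum_image (s := univ) (g := fun l : F => l • a) (f := fun x => MvPolynomial.eval x P)
      (fun l _ l' _ h => hinj h)]
    symm
    refine sum_subset (subset_univ _) ?_
    intro x _ hx
    have hx' : ∀ l : F, x ≠ l • a := by
      intro l hl
      exact hx (mem_image.mpr ⟨l, mem_univ _, hl.symm⟩)
    obtain ⟨i, hi⟩ := hcov x hx'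
    rw [heval, prod_eq_zero (mem_univ i) hi, zero_mul]
  have hpow : ∑ l : F, l ^ N = -1 := by
    have h1 : ∀ l : F, l ^ N = if l = 0 then 0 else 1 := by
      intro l
      split_ifs with h
      · rw [h, zero_pow (by omega)]
      · rw [hN, mul_comm, pow_mul, FiniteField.pow_card_sub_one_eq_one l h, one_pow]
    simp only [h1]
    have h2 : ∑ l : F, (if l = 0 then (0 : F) else 1) + 1 = 0 := by
      have h3 : ∑ l : F, (if l = 0 then (1 : F) else 0) = 1 := by simp
      have h4 : ∀ l : F, (if l = 0 then (0 : F) else 1) + (if l = 0 then (1 : F) else 0) = 1 := by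
        intro l
        split_ifs <;> simp
      have h5 : ∑ l : F, ((if l = 0 then (0 : F) else 1) + (if l = 0 then (1 : F) else 0)) = 0 := by
        rw [sum_congr rfl (fun l _ => h4 l)]
        simp
      rwa [sum_add_distrib, h3] at h5
    exact eq_neg_of_add_eq_zero_left h2
  rw [hs2] at hsum
  simp only [hsm] at hsum
  rw [← sum_mul, hpow, heval] at hsum
  have hne : (∏ i, c i ⬝ᵥ a) * a i0 ^ (N - Fintype.card ι) ≠ 0 :=
    mul_ne_zero (prod_ne_zero_iff.mpr (fun i _ => hc i)) (pow_ne_zero _ hi0)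
  exact hne (by simpa using hsum)

section Baer

variable (k F : Type) [Field k] [Field F] [Algebra k F]

/-- The vector over the big field attached to a vector over the small field. -/
def up (a : Fin 3 → k) : Fin 3 → F := fun i => algebraMap k F (a i)

theorem up_ne_zero {a : Fin 3 → k} (ha : a ≠ 0) : up k F a ≠ 0 := by
  intro h
  apply ha
  funext i
  have := congrFun h i
  simpa [up] using this

/-- The embedding of the subplane. -/
noncomputable def emb (z : ℙ k (Fin 3 → k)) : ℙ F (Fin 3 → F) :=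
  mk F (up k F z.rep) (up_ne_zero k F z.rep_nonzero)

/-- The small-field linear map attached to a line. -/
def form (c : Fin 3 → F) : (Fin 3 → k) →ₗ[k] F where
  toFun a := up k F a ⬝ᵥ c
  map_add' a b := by
    simp [up, dotProduct, add_mul, sum_add_distrib]
  map_smul' r a := by
    simp [up, dotProduct, Algebra.smul_def, mul_sum, mul_assoc]

theorem card_sub [Finite k] (W : Submodule k (Fin 3 → k)) :
    Nat.card {z : ℙ k (Fin 3 → k) // z.rep ∈ W} = Nat.card (ℙ k W) := by
  symm
  have hmem : ∀ (v : Fin 3 → k) (hv : v ≠ 0), v ∈ W → (mk k v hv).rep ∈ W := by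
    intro v hv hvW
    obtain ⟨u, hu⟩ := exists_smul_eq_mk_rep k v hv
    rw [← hu]
    exact W.smul_mem _ hvW
  refine Nat.card_eq_of_bijective
    (fun w => ⟨Projectivization.map W.subtype W.injective_subtype w, ?_⟩) ⟨?_, ?_⟩
  · induction w with
    | h v hv =>
      rw [map_mk]
      exact hmem _ _ v.2
  · intro w w' h
    exact map_injective W.subtype W.injective_subtype (Subtype.mk.inj h)
  · rintro ⟨z, hz⟩
    have hz0 : (⟨z.rep, hz⟩ : W) ≠ 0 := fun h => z.rep_nonzero (congrArg Subtype.val h)
    refine ⟨mk k ⟨z.rep, hz⟩ hz0, ?_⟩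
    apply Subtype.ext
    simp only [map_mk]
    exact mk_rep z

theorem card_line [Finite k] [Finite F] (h2 : Module.finrank k F = 2) (v : ℙ F (Fin 3 → F)) :
    Nat.card {z : ℙ k (Fin 3 → k) // orthogonal (emb k F z) v} = 1 ∨
    Nat.card {z : ℙ k (Fin 3 → k) // orthogonal (emb k F z) v} = Nat.card k + 1 := by
  have hiff : ∀ z : ℙ k (Fin 3 → k),
      orthogonal (emb k F z) v ↔ z.rep ∈ LinearMap.ker (form k F v.rep) := by
    intro z
    conv_lhs => rw [← mk_rep v]
    rw [emb, orthogonal_mk, LinearMap.mem_ker]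
    rfl
  rw [Nat.card_congr (Equiv.subtypeEquivRight hiff), card_sub]
  have hrk := LinearMap.finrank_range_add_finrank_ker (form k F v.rep)
  have hle : Module.finrank k (LinearMap.range (form k F v.rep)) ≤ 2 := by
    rw [← h2]
    exact Submodule.finrank_le _
  have hpos : 0 < Module.finrank k (LinearMap.range (form k F v.rep)) := by
    rw [Module.finrank_pos_iff_exists_ne_zero]
    obtain ⟨i, hi⟩ : ∃ i, v.rep i ≠ 0 := Function.ne_iff.mp v.rep_nonzero
    refine ⟨⟨form k F v.rep (Pi.single i 1), LinearMap.mem_range_self _ _⟩, ?_⟩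
    intro h
    have h' : form k F v.rep (Pi.single i 1) = 0 := congrArg Subtype.val h
    apply hi
    have : up k F (Pi.single i 1) = Pi.single i 1 := by
      funext j
      by_cases hj : j = i
      · subst hj
        simp [up]
      · simp [up, hj]
    have h'' : up k F (Pi.single i 1) ⬝ᵥ v.rep = 0 := h'
    rw [this] at h''
    simpa using h''
  simp only [Module.finrank_fintype_fun_eq_card, Fintype.card_fin] at hrk
  have hcases : Module.finrank k (LinearMap.ker (form k F v.rep)) = 1 ∨
      Module.finrank k (LinearMap.ker (form k F v.rep)) = 2 := by omega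
  rcases hcases with h | h
  · left
    rw [card_of_finrank k _ h]
    simp
  · right
    exact card_of_finrank_two k _ h

theorem card_subplane [Finite k] :
    Nat.card (ℙ k (Fin 3 → k)) = Nat.card k ^ 2 + Nat.card k + 1 := by
  rw [card_of_finrank k _ (n := 3) (by simp)]
  simp [sum_range_succ]
  ring

theorem cover_bound [Finite k] [Finite F] (h2 : Module.finrank k F = 2) (h4 : 4 ≤ Nat.card k)
    (S : Finset (ℙ F (Fin 3 → F)))
    (hS : ∀ y : ℙ F (Fin 3 → F), (∀ z, y ≠ emb k F z) → ∃ v ∈ S, orthogonal y v) :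
    Nat.card (ℙ k (Fin 3 → k)) ≤
      ∑ v ∈ S, Nat.card {z : ℙ k (Fin 3 → k) // orthogonal (emb k F z) v} := by
  classical
  by_contra hlt
  push Not at hlt
  let _ := Fintype.ofFinite k
  let _ := Fintype.ofFinite F
  let _ := Fintype.ofFinite (ℙ k (Fin 3 → k))
  have hz0 : ∃ z0 : ℙ k (Fin 3 → k), ∀ v ∈ S, ¬ orthogonal (emb k F z0) v := by
    by_contra hcon
    push Not at hcon
    have hsub : (univ : Finset (ℙ k (Fin 3 → k))) ⊆
        S.biUnion (fun v => univ.filter (fun z => orthogonal (emb k F z) v)) := by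
      intro z _
      obtain ⟨v, hv, hzv⟩ := hcon z
      exact mem_biUnion.mpr ⟨v, hv, mem_filter.mpr ⟨mem_univ _, hzv⟩⟩
    have h1 := le_trans (card_le_card hsub) card_biUnion_le
    rw [card_univ, ← Nat.card_eq_fintype_card] at h1
    refine absurd h1 (not_le.mpr (lt_of_le_of_lt (le_of_eq ?_) hlt))
    refine sum_congr rfl (fun v _ => ?_)
    rw [Nat.card_eq_fintype_card, Fintype.card_subtype]
  obtain ⟨z0, hz0⟩ := hz0
  have hScard : S.card ≤ Nat.card k ^ 2 + Nat.card k := by
    have : S.card ≤ ∑ v ∈ S, Nat.card {z : ℙ k (Fin 3 → k) // orthogonal (emb k F z) v} := by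
      rw [card_eq_sum_ones]
      refine sum_le_sum (fun v _ => ?_)
      rcases card_line k F h2 v with h | h <;> omega
    rw [card_subplane] at hlt
    omega
  have hF : Fintype.card F = Nat.card k ^ 2 := by
    rw [Module.card_eq_pow_finrank (K := k), h2, Nat.card_eq_fintype_card]
  set a := z0.rep with ha
  obtain ⟨i, hi⟩ : ∃ i, a i ≠ 0 := Function.ne_iff.mp z0.rep_nonzero
  let c2 : {j : Fin 3 // j ≠ i} × k → Fin 3 → k := fun q =>
    Pi.single i (1 + q.2 * a q.1.1) - Pi.single q.1.1 (q.2 * a i)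
  have hc2 : ∀ q (x : Fin 3 → k), c2 q ⬝ᵥ x = x i - q.2 * (x q.1.1 * a i - x i * a q.1.1) := by
    intro q x
    simp only [c2, sub_dotProduct, single_dotProduct]
    ring
  have hup : ∀ u w : Fin 3 → k, up k F u ⬝ᵥ up k F w = algebraMap k F (u ⬝ᵥ w) := by
    intro u w
    simp [up, dotProduct]
  let c : S ⊕ ({j : Fin 3 // j ≠ i} × k) → Fin 3 → F :=
    Sum.elim (fun v => v.1.rep) (fun q => up k F (c2 q))
  refine jamison c (up k F a) (up_ne_zero k F z0.rep_nonzero) ?_ ?_ ?_
  · rintro (v | q)
    · intro h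
      apply hz0 v.1 v.2
      conv_rhs => rw [← mk_rep v.1]
      rw [emb, orthogonal_mk, dotProduct_comm]
      exact h
    · simp only [c, Sum.elim_inr, hup, hc2]
      rw [map_ne_zero]
      have : a i - q.2 * (a q.1.1 * a i - a i * a q.1.1) = a i := by ring
      rw [this]
      exact hi
  · have h3 : Fintype.card {j : Fin 3 // j ≠ i} = 2 := by simp
    simp only [Fintype.card_sum, Fintype.card_coe, Fintype.card_prod, h3, hF]
    rw [← Nat.card_eq_fintype_card]
    have : 4 * Nat.card k ≤ Nat.card k ^ 2 := by nlinarith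
    omega
  · intro x hx
    have hx0 : x ≠ 0 := by
      intro h
      exact hx 0 (by rw [h, zero_smul])
    by_cases hy : ∀ z, mk F x hx0 ≠ emb k F z
    · obtain ⟨v, hv, hxv⟩ := hS _ hy
      refine ⟨Sum.inl ⟨v, hv⟩, ?_⟩
      rw [← mk_rep v, orthogonal_mk, dotProduct_comm] at hxv
      exact hxv
    · push Not at hy
      obtain ⟨z, hz⟩ := hy
      rw [emb, mk_eq_mk_iff'] at hz
      obtain ⟨l, hl⟩ := hz
      set u := z.rep
      by_cases hprop : ∀ j, u j * a i - u i * a j = 0
      · exfalso
        apply hx (l * algebraMap k F (u i / a i))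
        rw [← hl, mul_smul]
        congr 1
        funext j
        simp only [up, Pi.smul_apply, smul_eq_mul, ← map_mul]
        congr 1
        have := hprop j
        field_simp
        linear_combination this
      · push Not at hprop
        obtain ⟨j, hj⟩ := hprop
        have hji : j ≠ i := by
          rintro rfl
          exact hj (by ring)
        refine ⟨Sum.inr (⟨j, hji⟩, u i / (u j * a i - u i * a j)), ?_⟩
        simp only [c, Sum.elim_inr]
        rw [← hl, dotProduct_smul, hup, hc2]
        simp only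
        rw [div_mul_cancel₀ _ hj]
        simp

theorem baer (p : ℕ) [Fact p.Prime] [Finite k] [Finite F] (h2 : Module.finrank k F = 2)
    (h4 : 4 ≤ Nat.card k) (e : ℕ) (he : Nat.card k + 1 = p ^ e)
    (n t : ℕ) (hn : n ≠ 0) (h1 : Nat.card (ℙ F (Fin 3 → F)) * p ^ t ≤ p ^ n)
    (h3 : Nat.card (ℙ k (Fin 3 → k)) * p ^ n ≤ p ^ t * p ^ t) :
    ∃ (W : Type) (_ : Finite W) (part : W → ℙ k (Fin 3 → k) × Fin (p ^ n)) (H : Set (Set W)),
      (∀ e ∈ H, ∀ d, ∃! w, w ∈ e ∧ part w = d) ∧
      (∀ e ∈ H, ∀ f ∈ H, ∃ w, w ∈ e ∧ w ∈ f) ∧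
      (∀ C : Finset W, C.card < Nat.card (ℙ k (Fin 3 → k)) * p ^ n →
        ∃ e ∈ H, ∀ w ∈ C, w ∉ e) := by
  classical
  refine core p (Y := {y : ℙ F (Fin 3 → F) // ∀ z, y ≠ emb k F z}) (L := ℙ F (Fin 3 → F))
    (fun y v => orthogonal y.1 v) (fun z v => orthogonal (emb k F z) v) ?_ ?_ ?_ ?_ ?_ n t hn ?_ h3
  · intro y z
    exact Configuration.HasLines.existsUnique_line (ℙ F (Fin 3 → F)) (ℙ F (Fin 3 → F))
      y.1 (emb k F z) (y.2 z)
  · intro y y' h
    exact (Configuration.HasLines.existsUnique_line (ℙ F (Fin 3 → F)) (ℙ F (Fin 3 → F))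
      y.1 y'.1 (fun h' => h (Subtype.ext h'))).exists
  · intro v
    rcases card_line k F h2 v with h | h
    · exact ⟨0, by rw [h, pow_zero]⟩
    · exact ⟨e, by rw [h, he]⟩
  · intro y
    have h := Configuration.ProjectivePlane.two_lt_lineCount (ℙ F (Fin 3 → F)) y.1
    rw [Configuration.lineCount] at h
    let _ := Fintype.ofFinite {l : ℙ F (Fin 3 → F) // y.1 ∈ l}
    rw [Nat.card_eq_fintype_card, Fintype.two_lt_card_iff] at h
    obtain ⟨v1, v2, v3, h12, h13, h23⟩ := h
    exact ⟨v1.1, v2.1, v3.1, v1.2, v2.2, v3.2, fun h => h12 (Subtype.ext h),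
      fun h => h13 (Subtype.ext h), fun h => h23 (Subtype.ext h)⟩
  · intro S hS
    exact cover_bound k F h2 h4 S (fun y hy => hS ⟨y, hy⟩)
  · exact le_trans (Nat.mul_le_mul_right _ (Finite.card_subtype_le _)) h1

end Baer

end Vale.Agent.P045
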