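import Mathlib
import Vale.Agent.P045.Geom

/-! The concrete family: `57 * 2 ^ k` parts, from the Baer subplane of order 7. -/

namespace Vale.Agent.P045

open Finset Projectivization
open scoped LinearAlgebra.Projectivization

theorem family (n : ℕ) (hn : 30 ≤ n) :
    ∃ (V : Type) (_ : Fintype V) (_ : DecidableEq V) (part : V → Fin (57 * 2 ^ n))
      (H : Finset (Finset V)),
      (∀ e ∈ H, ∀ i, ∃! v, v ∈ e ∧ part v = i) ∧
      (∀ e ∈ H, ∀ f ∈ H, ∃ v, v ∈ e ∧ v ∈ f) ∧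
      (∀ C : Finset V, C.card < 57 * 2 ^ n → ∃ e ∈ H, ∀ v ∈ C, v ∉ e) := by
  classical
  have : Fact (Nat.Prime 7) := ⟨by norm_num⟩
  have hk : Nat.card (ZMod 7) = 7 := by simp
  have hF : Nat.card (GaloisField 7 2) = 49 := by
    rw [GaloisField.card 7 2 (by norm_num)]
    norm_num
  have hZ : Nat.card (ℙ (ZMod 7) (Fin 3 → ZMod 7)) = 57 := by
    rw [card_subplane, hk]
    norm_num
  have hL : Nat.card (ℙ (GaloisField 7 2) (Fin 3 → GaloisField 7 2)) = 2451 := by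
    rw [card_subplane, hF]
    norm_num
  obtain ⟨t, rfl⟩ : ∃ t, n = t + 18 + 12 := ⟨n - 30, by omega⟩
  obtain ⟨W, hW, part, H, h1, h2, h3⟩ := baer (ZMod 7) (GaloisField 7 2) 2
    (GaloisField.finrank 7 (by norm_num)) (by rw [hk]; norm_num) 3 (by rw [hk]; norm_num)
    (t + 18 + 12) (t + 18) (by omega)
    (by
      rw [hL, pow_add 2 (t + 18) 12]
      have : 0 < 2 ^ (t + 18) := by positivity
      omega)
    (by
      rw [hZ, pow_add 2 (t + 18) 12, pow_add 2 t 18]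
      have : 0 < 2 ^ t := by positivity
      nlinarith)
  rw [hZ] at h3
  obtain ⟨ε⟩ : Nonempty (ℙ (ZMod 7) (Fin 3 → ZMod 7) × Fin (2 ^ (t + 18 + 12)) ≃
      Fin (57 * 2 ^ (t + 18 + 12))) := by
    apply Finite.card_eq.mp
    rw [Nat.card_prod, hZ]
    simp only [Nat.card_eq_fintype_card, Fintype.card_fin]
  let _ := Fintype.ofFinite W
  refine ⟨W, inferInstance, inferInstance, fun w => ε (part w),
    univ.filter (fun e : Finset W => (e : Set W) ∈ H), ?_, ?_, ?_⟩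
  · intro e he i
    have := h1 _ (mem_filter.mp he).2 (ε.symm i)
    simpa only [mem_coe, Equiv.eq_symm_apply] using this
  · intro e he f hf
    exact h2 _ (mem_filter.mp he).2 _ (mem_filter.mp hf).2
  · intro C hC
    obtain ⟨e, he, hCe⟩ := h3 C hC
    refine ⟨e.toFinset, mem_filter.mpr ⟨mem_univ _, by simpa using he⟩, ?_⟩
    intro v hv
    simpa using hCe v hv

/-- Disjoint copies. -/
theorem copies {V : Type} [DecidableEq V] {r : ℕ} (part : V → Fin r) (H : Finset (Finset V))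
    (h1 : ∀ e ∈ H, ∀ i, ∃! v, v ∈ e ∧ part v = i)
    (h2 : ∀ e ∈ H, ∀ f ∈ H, ∃ v, v ∈ e ∧ v ∈ f)
    (h3 : ∀ C : Finset V, C.card < r → ∃ e ∈ H, ∀ v ∈ C, v ∉ e) (hr : 0 < r) (m : ℕ) :
    ∃ H' : Finset (Finset (V × Fin m)),
      (∀ e ∈ H', ∀ i, ∃! v, v ∈ e ∧ part v.1 = i) ∧
      (∀ M ⊆ H', (∀ e ∈ M, ∀ f ∈ M, e ≠ f → Disjoint e f) → M.card ≤ m) ∧
      (∃ M ⊆ H', (∀ e ∈ M, ∀ f ∈ M, e ≠ f → Disjoint e f) ∧ M.card = m) ∧
      (∀ C : Finset (V × Fin m), (∀ e ∈ H', ∃ v ∈ C, v ∈ e) → r * m ≤ C.card) ∧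
      (∃ C : Finset (V × Fin m), (∀ e ∈ H', ∃ v ∈ C, v ∈ e) ∧ C.card = r * m) := by
  classical
  obtain ⟨e0, he0, -⟩ := h3 ∅ (by simpa using hr)
  have hcard : e0.card = r := by
    have : e0.card = (univ : Finset (Fin r)).card := by
      refine card_bij (fun v _ => part v) (fun _ _ => mem_univ _) ?_ ?_
      · intro v hv w hw h
        exact (h1 e0 he0 (part w)).unique ⟨hv, h⟩ ⟨hw, rfl⟩
      · intro i _
        obtain ⟨v, hv, -⟩ := h1 e0 he0 i
        exact ⟨v, hv.1, hv.2⟩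
    simpa using this
  have hne : e0.Nonempty := card_pos.mp (by omega)
  let cp : Finset V × Fin m → Finset (V × Fin m) := fun q => q.1 ×ˢ {q.2}
  have hcp : ∀ q (v : V × Fin m), v ∈ cp q ↔ v.1 ∈ q.1 ∧ v.2 = q.2 := by
    intro q v
    simp only [cp, mem_product, mem_singleton]
  refine ⟨(H ×ˢ univ).image cp, ?_, ?_, ?_, ?_, ?_⟩
  · intro e he i
    obtain ⟨q, hq, rfl⟩ := mem_image.mp he
    obtain ⟨v, hv, hu⟩ := h1 q.1 (mem_product.mp hq).1 i
    refine ⟨(v, q.2), ⟨(hcp _ _).mpr ⟨hv.1, rfl⟩, hv.2⟩, ?_⟩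
    rintro w ⟨hw, hwi⟩
    rw [hcp] at hw
    exact Prod.ext (hu w.1 ⟨hw.1, hwi⟩) hw.2
  · intro M hM hd
    have hq : ∀ e : M, ∃ q ∈ H ×ˢ (univ : Finset (Fin m)), cp q = e := fun e =>
      mem_image.mp (hM e.2)
    choose q hq1 hq2 using hq
    have hinj : Function.Injective (fun e : M => (q e).2) := by
      intro e f h
      by_contra hef
      have hdis := hd e e.2 f f.2 (fun h' => hef (Subtype.ext h'))
      obtain ⟨v, hv1, hv2⟩ := h2 _ (mem_product.mp (hq1 e)).1 _ (mem_product.mp (hq1 f)).1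
      have a1 : (v, (q e).2) ∈ (e : Finset (V × Fin m)) := by
        rw [← hq2 e, hcp]
        exact ⟨hv1, rfl⟩
      have a2 : (v, (q e).2) ∈ (f : Finset (V × Fin m)) := by
        rw [← hq2 f, hcp]
        exact ⟨hv2, h⟩
      exact disjoint_left.mp hdis a1 a2
    simpa using Fintype.card_le_of_injective _ hinj
  · refine ⟨univ.image (fun j : Fin m => cp (e0, j)), ?_, ?_, ?_⟩
    · intro e he
      obtain ⟨j, -, rfl⟩ := mem_image.mp he
      exact mem_image.mpr ⟨(e0, j), mem_product.mpr ⟨he0, mem_univ _⟩, rfl⟩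
    · intro e he f hf hef
      obtain ⟨j, -, rfl⟩ := mem_image.mp he
      obtain ⟨j', -, rfl⟩ := mem_image.mp hf
      rw [disjoint_left]
      intro v hv hv'
      rw [hcp] at hv hv'
      apply hef
      have : j = j' := hv.2.symm.trans hv'.2
      rw [this]
    · rw [card_image_of_injective _ ?_]
      · simp
      · intro j j' h
        obtain ⟨v, hv⟩ := hne
        have a1 : (v, j) ∈ cp (e0, j) := (hcp _ _).mpr ⟨hv, rfl⟩
        have h' : cp (e0, j) = cp (e0, j') := h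
        rw [h', hcp] at a1
        exact a1.2
  · intro C hC
    have hfib : ∀ j : Fin m, r ≤ (C.filter (fun v => v.2 = j)).card := by
      intro j
      by_contra hlt
      push Not at hlt
      obtain ⟨e, he, hce⟩ := h3 ((C.filter (fun v => v.2 = j)).image Prod.fst)
        (lt_of_le_of_lt card_image_le hlt)
      obtain ⟨v, hv, hve⟩ := hC (cp (e, j))
        (mem_image.mpr ⟨(e, j), mem_product.mpr ⟨he, mem_univ _⟩, rfl⟩)
      rw [hcp] at hve
      exact hce v.1 (mem_image.mpr ⟨v, mem_filter.mpr ⟨hv, hve.2⟩, rfl⟩) hve.1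
    calc r * m = ∑ _j : Fin m, r := by simp [mul_comm]
      _ ≤ ∑ j : Fin m, (C.filter (fun v => v.2 = j)).card := sum_le_sum (fun j _ => hfib j)
      _ = C.card := (card_eq_sum_card_fiberwise (fun v _ => mem_univ v.2)).symm
  · refine ⟨e0 ×ˢ univ, ?_, by simp [hcard]⟩
    intro e he
    obtain ⟨q, hq, rfl⟩ := mem_image.mp he
    obtain ⟨v, hv1, hv2⟩ := h2 e0 he0 q.1 (mem_product.mp hq).1
    exact ⟨(v, q.2), mem_product.mpr ⟨hv1, mem_univ _⟩, (hcp _ _).mpr ⟨hv2, rfl⟩⟩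

end Vale.Agent.P045
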